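import Vale.Agent.P207.N4.H77.Aff3
import Vale.Agent.P207.H147.LinV

/-!
# P207, row T1 with a bunching condition along each orbit: affine charts of the unstable leaves, part 1

Same charts `lin`, `aff` as in `H77`; the hypothesis `b < 2 a` is replaced by `Bun L`: the
contraction and the expansion of the leaf are bounded by functions `al t x`, `be t x` of the orbit
with `be t x * al t x ^ 2 ≤ exp (-ε t)`.
-/

open Set Filter Topology Metric MeasureTheory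
open scoped ContDiff Nat

set_option linter.unusedSectionVars false

noncomputable section

namespace Vale.Agent.P207.N4.H965.Bu

open Vale.Agent.P207.N3 Vale.Agent.P207.N3.H646 Vale.Agent.P207.H77
open Vale.Agent.P207.N4 Vale.Agent.P207.N4.H646 Vale.Agent.P207.N4.H77

variable [Dim]

variable {Γ X B : Type} [Group Γ] [MetricSpace X] [ProperSpace X] [MulAction Γ X]
  [IsIsometricSMul Γ X] [TopologicalSpace B] [CompactSpace B] [T2Space B] [MulAction Γ B]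
  [ContinuousConstSMul Γ B]

/-- the rates along the orbits: contraction `al`, expansion `be`, bunched -/
structure BunR (L : Leaf Γ X B) (al be : ℝ → X → ℝ) (ε D : ℝ) : Prop where
  e0 : 0 < ε
  al0 : ∀ t x, 0 ≤ al t x
  be0 : ∀ t x, 0 ≤ be t x
  al1 : ∀ x, ∀ t ≥ L.t1, al t x ≤ 1
  prod : ∀ x, ∀ t ≥ L.t1, be t x * al t x ^ 2 ≤ Real.exp (-ε * t)
  step : ∀ x, ∀ t ≥ L.t1, be (t + L.t1) x ≤ D * be t (L.φ L.t1 x)
  b1 : ∀ x, be L.t1 x ≤ D
  con : ∀ k : ℕ, 1 ≤ k → ∃ C, ∀ x, ∀ t ≥ L.t1, ∀ u ∈ ball (0 : E2) 3,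
    ‖iteratedFDeriv ℝ k (tau L.e (L.φ t x) x) u‖ ≤ C * al t x
  inv : ∃ C, ∀ x, ∀ t ≥ L.t1, ‖Dt L t x‖ ≤ C * be t x

/-- the leaf is bunched along every orbit -/
def Bun (L : Leaf Γ X B) : Prop := ∃ (al be : ℝ → X → ℝ) (ε D : ℝ), BunR L al be ε D

section BR

variable {L : Leaf Γ X B} {al be : ℝ → X → ℝ} {ε D : ℝ} (Q : BunR L al be ε D)
include Q

theorem conB (k : ℕ) (hk : 1 ≤ k) : ∃ C : ℝ, 1 ≤ C ∧ ∀ x, ∀ t ≥ L.t1, ∀ u ∈ ball (0 : E2) 3,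
    ‖iteratedFDeriv ℝ k (pm L t x) u‖ ≤ C * al t (L.φ (-t) x) := by
  obtain ⟨C, hC⟩ := Q.con k hk
  refine ⟨max C 1, le_max_right _ _, fun x t ht u hu => ?_⟩
  have h1 := hC (L.φ (-t) x) t ht u hu
  rw [φ_back] at h1
  refine h1.trans ?_
  have := Q.al0 t (L.φ (-t) x)
  gcongr
  exact le_max_left _ _

theorem pm_lipB : ∃ C : ℝ, 1 ≤ C ∧ ∀ x, ∀ t ≥ L.t1, ∀ u ∈ ball (0 : E2) 3,
    ∀ v ∈ ball (0 : E2) 3, ‖pm L t x u - pm L t x v‖ ≤ C * al t (L.φ (-t) x) * ‖u - v‖ := by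
  obtain ⟨C, hC, h⟩ := conB Q 1 le_rfl
  refine ⟨C, hC, fun x t ht u hu v hv => ?_⟩
  have hd : ∀ w ∈ ball (0 : E2) 3, HasFDerivWithinAt (pm L t x) (fderiv ℝ (pm L t x) w)
      (ball 0 3) w := fun w hw =>
    (tau_hasFDerivAt L (em_back L t x) (mem_dm_back L ht x hw)).hasFDerivWithinAt
  have hb : ∀ w ∈ ball (0 : E2) 3, ‖fderiv ℝ (pm L t x) w‖ ≤ C * al t (L.φ (-t) x) := by
    intro w hw
    have := h x t ht w hw
    rwa [norm_iteratedFDeriv_one] at this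
  exact (convex_ball (0 : E2) 3).norm_image_sub_le_of_norm_hasFDerivWithin_le hd hb hv hu

theorem pm_smallB : ∃ C : ℝ, 1 ≤ C ∧ ∀ x, ∀ t ≥ L.t1, ∀ u ∈ ball (0 : E2) 3,
    ‖pm L t x u‖ ≤ C * al t (L.φ (-t) x) := by
  obtain ⟨C, hC, h⟩ := pm_lipB Q
  refine ⟨C * 3, by nlinarith, fun x t ht u hu => ?_⟩
  have h1 := h x t ht u hu 0 zero_mem3
  rw [pm_zero, sub_zero, sub_zero] at h1
  refine h1.trans ?_
  have h2 : ‖u‖ ≤ 3 := (mem_ball_zero_iff.mp hu).le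
  have h3 := Q.al0 t (L.φ (-t) x)
  calc C * al t (L.φ (-t) x) * ‖u‖ ≤ C * al t (L.φ (-t) x) * 3 := by gcongr
    _ = C * 3 * al t (L.φ (-t) x) := by ring

theorem fwdB : ∃ C : ℝ, 1 ≤ C ∧ ∀ x, ∀ t ≥ L.t1, ‖Dt L t x‖ ≤ C * be t x := by
  obtain ⟨C, hC⟩ := Q.inv
  refine ⟨max C 1, le_max_right _ _, fun x t ht => (hC x t ht).trans ?_⟩
  have := Q.be0 t x
  gcongr
  exact le_max_left _ _

omit Q in
/-- the times of the discrete orbit -/
theorem t_mulB (n : ℕ) : L.t1 ≤ (n + 1 : ℝ) * L.t1 := by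
  have := L.t1_pos
  nlinarith [mul_nonneg (Nat.cast_nonneg (α := ℝ) n) this.le]

/-- the constants -/
theorem exists_linV : ∃ (rho C' C2 : ℝ) (K C : ℕ → ℝ) (al' be' : ℕ → X → ℝ),
    H147.LinV (P := X) 3 rho C' C2 K C al' be'
      (fun n x => pm L L.t1 (L.φ (-((n + 1 : ℝ) * L.t1)) x))
      (fun n x => pm L ((n + 1 : ℝ) * L.t1) x)
      (fun n x => De L (-((n + 1 : ℝ) * L.t1)) x) := by
  choose! Cc hC1 hCc using conB Q
  obtain ⟨Cs, hCs1, hCs⟩ := pm_smallB Q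
  obtain ⟨Ci, hCi1, hCi⟩ := fwdB Q
  have ht := L.t1_pos
  have he := Q.e0
  have hD0 : 0 ≤ max D 0 := le_max_right _ _
  refine ⟨Real.exp (-ε * L.t1), Ci, max D 0, fun k => if k = 0 then Cs else Cc k,
    fun k => if k = 0 then Cs else Cc k,
    fun n x => al ((n + 1 : ℝ) * L.t1) (L.φ (-((n + 1 : ℝ) * L.t1)) x),
    fun n x => be ((n + 1 : ℝ) * L.t1) (L.φ (-((n + 1 : ℝ) * L.t1)) x), ?_⟩
  refine
  { r0 := by norm_num
    al0 := fun n p => Q.al0 _ _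
    al1 := fun n p => Q.al1 _ _ (t_mulB n)
    rho0 := (Real.exp_pos _).le
    rho1 := Real.exp_lt_one_iff.mpr (by nlinarith)
    C'0 := by linarith
    C20 := hD0
    rate := fun n x => ?_
    be0 := fun x => ?_
    jf := fun n => ?_
    jF := fun n => jc_pm L (t_mulB n)
    maps := fun n x u hu => ball_subset_ball (by norm_num) (pm_mem L (t_mulB n) x hu)
    succ := fun n x u hu => ?_
    F0 := fun n x => pm_zero L _ x
    f0 := fun n x => pm_zero L _ _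
    fK := fun k n x u hu => ?_
    FC := fun k n x u hu => ?_
    AF := fun n x => fderiv_pm L _ x
    Ainv := fun n x => ?_
    Acont := fun n => ?_ }
  · have h1 := Q.step (L.φ (-(((n + 1 : ℕ) + 1 : ℝ) * L.t1)) x) _ (t_mulB (L := L) n)
    have h2 : (n + 1 : ℝ) * L.t1 + L.t1 = ((n + 1 : ℕ) + 1 : ℝ) * L.t1 := by push_cast; ring
    have h3 : L.φ L.t1 (L.φ (-(((n + 1 : ℕ) + 1 : ℝ) * L.t1)) x) =
        L.φ (-((n + 1 : ℝ) * L.t1)) x := by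
      rw [← L.φ_add]; congr 1; push_cast; ring
    rw [h2, h3] at h1
    have h4 := Q.prod (L.φ (-((n + 1 : ℝ) * L.t1)) x) _ (t_mulB (L := L) n)
    have h5 : Real.exp (-ε * ((n + 1 : ℝ) * L.t1)) ≤ Real.exp (-ε * L.t1) ^ n := by
      rw [← Real.exp_nat_mul]
      apply Real.exp_le_exp.2
      nlinarith
    set A1 := al ((n + 1 : ℝ) * L.t1) (L.φ (-((n + 1 : ℝ) * L.t1)) x)
    set B1 := be ((n + 1 : ℝ) * L.t1) (L.φ (-((n + 1 : ℝ) * L.t1)) x)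
    have h6 : 0 ≤ B1 * A1 ^ 2 := mul_nonneg (Q.be0 _ _) (sq_nonneg _)
    show be (((n + 1 : ℕ) + 1 : ℝ) * L.t1) (L.φ (-(((n + 1 : ℕ) + 1 : ℝ) * L.t1)) x) * A1 ^ 2 ≤ _
    calc be (((n + 1 : ℕ) + 1 : ℝ) * L.t1) (L.φ (-(((n + 1 : ℕ) + 1 : ℝ) * L.t1)) x) * A1 ^ 2
        ≤ (D * B1) * A1 ^ 2 := mul_le_mul_of_nonneg_right h1 (sq_nonneg _)
      _ = D * (B1 * A1 ^ 2) := by ring
      _ ≤ max D 0 * (B1 * A1 ^ 2) := mul_le_mul_of_nonneg_right (le_max_left _ _) h6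
      _ ≤ max D 0 * Real.exp (-ε * L.t1) ^ n :=
        mul_le_mul_of_nonneg_left (h4.trans h5) hD0
  · have h1 := Q.b1 (L.φ (-(((0 : ℕ) + 1 : ℝ) * L.t1)) x)
    have h2 : ((0 : ℕ) + 1 : ℝ) * L.t1 = L.t1 := by simp
    show be (((0 : ℕ) + 1 : ℝ) * L.t1) (L.φ (-(((0 : ℕ) + 1 : ℝ) * L.t1)) x) ≤ _
    rw [h2] at h1 ⊢
    exact h1.trans (le_max_left _ _)
  · have h1 : Continuous fun x : X => L.φ (-((n + 1 : ℝ) * L.t1)) x := L.φ_cont' _
    exact (jc_pm L le_rfl).param h1 fun p hp => ⟨trivial, hp.2⟩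
  · have h1 := pm_pm L (t_mulB n) (le_refl L.t1) x hu
    show pm L (((n + 1 : ℕ) + 1 : ℝ) * L.t1) x u = _
    rw [h1]
    congr 1
    push_cast
    ring
  · have h1 := Q.al1 (L.φ (-L.t1) (L.φ (-((n + 1 : ℝ) * L.t1)) x)) L.t1 le_rfl
    rcases Nat.eq_zero_or_pos k with rfl | hk
    · rw [norm_iteratedFDeriv_zero, if_pos rfl]
      refine (hCs _ L.t1 le_rfl u hu).trans ?_
      exact mul_le_of_le_one_right (by linarith) h1
    · rw [if_neg hk.ne']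
      refine (hCc k hk _ L.t1 le_rfl u hu).trans ?_
      exact mul_le_of_le_one_right (by linarith [hC1 k hk]) h1
  · rcases Nat.eq_zero_or_pos k with rfl | hk
    · rw [norm_iteratedFDeriv_zero, if_pos rfl]
      exact hCs _ _ (t_mulB n) u hu
    · rw [if_neg hk.ne']
      exact hCc k hk _ _ (t_mulB n) u hu
  · have h1 : ((De L (-((n + 1 : ℝ) * L.t1)) x).symm : E2 →L[ℝ] E2) =
        Dt L ((n + 1 : ℝ) * L.t1) (L.φ (-((n + 1 : ℝ) * L.t1)) x) := by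
      rw [De_symm, neg_neg]
    rw [h1]
    exact hCi _ _ (t_mulB n)
  · have h1 : (fun x : X => ((De L (-((n + 1 : ℝ) * L.t1)) x).symm : E2 →L[ℝ] E2)) =
        fun x => Dt L ((n + 1 : ℝ) * L.t1) (L.φ (-((n + 1 : ℝ) * L.t1)) x) := by
      funext x
      rw [De_symm, neg_neg]
    rw [h1]
    exact (Dt_cont L _).comp (L.φ_cont' _)

end BR

/-! ### The linearisation -/

variable {L : Leaf Γ X B}

section LinB

variable (hB : Bun L)
include hB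

theorem jc_lin : JC ((univ : Set X) ×ˢ ball (0 : E2) 3) (lin L) := by
  obtain ⟨al, be, ε, D, Q⟩ := hB
  obtain ⟨rho, C', C2, K, C, al', be', h⟩ := exists_linV Q
  exact h.jc_lim

theorem lin_zero (x : X) : lin L x 0 = 0 := by
  obtain ⟨al, be, ε, D, Q⟩ := hB
  obtain ⟨rho, C', C2, K, C, al', be', h⟩ := exists_linV Q
  exact h.lim_zero x

theorem fderiv_lin (x : X) : fderiv ℝ (lin L x) 0 = ContinuousLinearMap.id ℝ E2 := by
  obtain ⟨al, be, ε, D, Q⟩ := hB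
  obtain ⟨rho, C', C2, K, C, al', be', h⟩ := exists_linV Q
  exact h.fderiv_lim x

theorem lin_smooth (x : X) : ContDiffOn ℝ ∞ (lin L x) (ball 0 3) := fun u hu =>
  ((jc_lin hB).smooth (x, u) ⟨trivial, hu⟩).contDiffWithinAt

theorem lin_tendsto (x : X) {u : E2} (hu : u ∈ ball (0 : E2) 3) :
    Tendsto (fun n : ℕ => Dt L ((n + 1 : ℝ) * L.t1) (L.φ (-((n + 1 : ℝ) * L.t1)) x)
      (pm L ((n + 1 : ℝ) * L.t1) x u)) atTop (𝓝 (lin L x u)) := by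
  obtain ⟨al, be, ε, D, Q⟩ := hB
  obtain ⟨rho, C', C2, K, C, al', be', h⟩ := exists_linV Q
  have h1 := h.tendsto_gg x hu
  refine h1.congr fun n => ?_
  show ((De L (-((n + 1 : ℝ) * L.t1)) x).symm : E2 →L[ℝ] E2) _ = _
  rw [De_symm, neg_neg]

theorem lin_bound (k : ℕ) : ∃ C : ℝ, 0 ≤ C ∧ ∀ x, ∀ u ∈ ball (0 : E2) 3,
    ‖iteratedFDeriv ℝ k (lin L x) u‖ ≤ C := by
  obtain ⟨al, be, ε, D, Q⟩ := hB
  obtain ⟨rho, C', C2, K, C, al', be', h⟩ := exists_linV Q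
  exact h.lim_bound k

/-- the linearisation is the identity up to order two, uniformly -/
theorem lin_quad : ∃ C : ℝ, 0 ≤ C ∧ ∀ x, ∀ u ∈ ball (0 : E2) 3,
    ‖fderiv ℝ (lin L x) u - ContinuousLinearMap.id ℝ E2‖ ≤ C * ‖u‖ ∧
      ‖lin L x u - u‖ ≤ C * ‖u‖ * ‖u‖ := by
  obtain ⟨C, hC0, hC⟩ := lin_bound hB 2
  refine ⟨C, hC0, fun x => ?_⟩
  have h0 := zero_mem3
  have hsm : ∀ y ∈ ball (0 : E2) 3, ContDiffAt ℝ ∞ (lin L x) y := fun y hy =>
    (jc_lin hB).smooth (x, y) ⟨trivial, hy⟩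
  have hd : ∀ y ∈ ball (0 : E2) 3, fderiv ℝ (fun u => lin L x u - u) y =
      fderiv ℝ (lin L x) y - ContinuousLinearMap.id ℝ E2 := by
    intro y hy
    rw [fderiv_fun_sub ((hsm y hy).differentiableAt (by simp)) differentiableAt_fun_id,
      fderiv_fun_id]
  have hb : ∀ y ∈ ball (0 : E2) 3, ‖iteratedFDeriv ℝ 2 (fun u => lin L x u - u) y‖ ≤ C := by
    intro y hy
    have h1 : iteratedFDeriv ℝ 2 (fun u => lin L x u - u) y =
        iteratedFDeriv ℝ 2 (lin L x) y - iteratedFDeriv ℝ 2 (fun u : E2 => u) y :=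
      iteratedFDeriv_sub_apply (i := 2) ((hsm y hy).of_le (by norm_cast))
        contDiffAt_id
    have h2 : iteratedFDeriv ℝ 2 (fun u : E2 => u) y = 0 := by
      rw [← norm_eq_zero, ← norm_iteratedFDeriv_fderiv]
      have h3 : fderiv ℝ (fun u : E2 => u) = fun _ => ContinuousLinearMap.id ℝ E2 := by
        funext z; exact fderiv_fun_id
      rw [h3, iteratedFDeriv_const_of_ne (by norm_num)]
      simp
    rw [h1, h2, sub_zero]
    exact hC x y hy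
  have h1 : ContDiffOn ℝ ∞ (fun u => lin L x u - u) (ball 0 3) :=
    (lin_smooth hB x).sub contDiffOn_id
  have key := Vale.Agent.P207.H77.quad_bound (r := 3) (by norm_num) h1
    (by simp [lin_zero hB]) (by rw [hd 0 h0, fderiv_lin hB, sub_self]) hb
  intro u hu
  obtain ⟨h2, h3⟩ := key u hu
  rw [hd u hu] at h2
  exact ⟨h2, h3⟩

/-- uniqueness of the linearisation -/
theorem lin_unique {l : X → E2 → E2}
    (hsh : ∀ x, ∀ u ∈ ball (0 : E2) 3,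
      l x u = Dt L L.t1 (L.φ (-L.t1) x) (l (L.φ (-L.t1) x) (pm L L.t1 x u)))
    {C : ℝ} (hq : ∀ x, ∀ u ∈ ball (0 : E2) 3, ‖l x u - u‖ ≤ C * ‖u‖ * ‖u‖) (x : X) {u : E2}
    (hu : u ∈ ball (0 : E2) 3) : l x u = lin L x u := by
  have ht := L.t1_pos
  -- the iterated law
  have h1 : ∀ n : ℕ, l x u = Dt L ((n + 1 : ℝ) * L.t1) (L.φ (-((n + 1 : ℝ) * L.t1)) x)
      (l (L.φ (-((n + 1 : ℝ) * L.t1)) x) (pm L ((n + 1 : ℝ) * L.t1) x u)) := by
    intro n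
    induction n with
    | zero => simpa using hsh x u hu
    | succ n ih =>
      rw [ih]
      set z := L.φ (-((n + 1 : ℝ) * L.t1)) x with hz
      have hw : pm L ((n + 1 : ℝ) * L.t1) x u ∈ ball (0 : E2) 3 :=
        ball_subset_ball (by norm_num) (pm_mem L (t_mulB n) x hu)
      rw [hsh z _ hw]
      have h2 := pm_pm L (t_mulB n) (le_refl L.t1) x hu
      rw [← hz] at h2
      have h3 : (n + 1 : ℝ) * L.t1 + L.t1 = (((n + 1 : ℕ) : ℝ) + 1) * L.t1 := by push_cast; ring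
      have h4 : L.φ (-L.t1) z = L.φ (-((((n + 1 : ℕ) : ℝ) + 1) * L.t1)) x := by
        rw [hz, ← L.φ_add, ← h3]; congr 1; ring
      have h5 : Dt L ((((n + 1 : ℕ) : ℝ) + 1) * L.t1) (L.φ (-L.t1) z) =
          (Dt L ((n + 1 : ℝ) * L.t1) z).comp (Dt L L.t1 (L.φ (-L.t1) z)) := by
        rw [← h3, Dt_add, φ_back]
      rw [h2, h3, h4] at *
      rw [h5]
      rfl
  have h2 := lin_tendsto hB x hu
  obtain ⟨al, be, ε, D, Q⟩ := hB
  refine tendsto_nhds_unique ?_ h2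
  rw [tendsto_iff_norm_sub_tendsto_zero]
  obtain ⟨Ci, hCi1, hCi⟩ := fwdB Q
  obtain ⟨Cs, hCs1, hCs⟩ := pm_smallB Q
  have he := Q.e0
  have h3 : ∀ n : ℕ, ‖Dt L ((n + 1 : ℝ) * L.t1) (L.φ (-((n + 1 : ℝ) * L.t1)) x)
      (pm L ((n + 1 : ℝ) * L.t1) x u) - l x u‖ ≤
      (Ci * |C| * Cs ^ 2) * Real.exp (-ε * L.t1) ^ (n + 1) := by
    intro n
    rw [h1 n, ← map_sub]
    set w := pm L ((n + 1 : ℝ) * L.t1) x u with hw
    have hwb : w ∈ ball (0 : E2) 3 := ball_subset_ball (by norm_num) (pm_mem L (t_mulB n) x hu)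
    have h4 := (Dt L ((n + 1 : ℝ) * L.t1) (L.φ (-((n + 1 : ℝ) * L.t1)) x)).le_opNorm
      (w - l (L.φ (-((n + 1 : ℝ) * L.t1)) x) w)
    refine h4.trans ?_
    have h5 := hCi (L.φ (-((n + 1 : ℝ) * L.t1)) x) _ (t_mulB (L := L) n)
    have hp := Q.prod (L.φ (-((n + 1 : ℝ) * L.t1)) x) _ (t_mulB (L := L) n)
    have hal := Q.al0 ((n + 1 : ℝ) * L.t1) (L.φ (-((n + 1 : ℝ) * L.t1)) x)
    have hbe := Q.be0 ((n + 1 : ℝ) * L.t1) (L.φ (-((n + 1 : ℝ) * L.t1)) x)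
    have h7 : ‖w‖ ≤ Cs * al ((n + 1 : ℝ) * L.t1) (L.φ (-((n + 1 : ℝ) * L.t1)) x) :=
      hCs x _ (t_mulB n) u hu
    set A1 := al ((n + 1 : ℝ) * L.t1) (L.φ (-((n + 1 : ℝ) * L.t1)) x)
    set B1 := be ((n + 1 : ℝ) * L.t1) (L.φ (-((n + 1 : ℝ) * L.t1)) x)
    have h6 : ‖w - l (L.φ (-((n + 1 : ℝ) * L.t1)) x) w‖ ≤ |C| * (Cs * A1) * (Cs * A1) := by
      rw [norm_sub_rev]
      refine (hq _ w hwb).trans ?_
      have h8 : C ≤ |C| := le_abs_self C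
      have h9 : 0 ≤ |C| := abs_nonneg C
      gcongr
    refine (mul_le_mul h5 h6 (norm_nonneg _) (by positivity)).trans ?_
    have h10 : Real.exp (-ε * L.t1) ^ (n + 1) = Real.exp (-ε * ((n + 1 : ℝ) * L.t1)) := by
      rw [← Real.exp_nat_mul]
      congr 1
      push_cast
      ring
    rw [h10]
    calc Ci * B1 * (|C| * (Cs * A1) * (Cs * A1)) = (Ci * |C| * Cs ^ 2) * (B1 * A1 ^ 2) := by ring
      _ ≤ (Ci * |C| * Cs ^ 2) * Real.exp (-ε * ((n + 1 : ℝ) * L.t1)) := by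
        have : 0 ≤ Ci * |C| * Cs ^ 2 := by positivity
        exact mul_le_mul_of_nonneg_left hp this
  refine squeeze_zero (fun n => norm_nonneg _) h3 ?_
  have h4 : Real.exp (-ε * L.t1) < 1 := by
    rw [Real.exp_lt_one_iff]
    nlinarith
  have h5 := (tendsto_pow_atTop_nhds_zero_of_lt_one (Real.exp_pos _).le h4).comp
    (tendsto_add_atTop_nat 1)
  simpa using h5.const_mul (Ci * |C| * Cs ^ 2)

end LinB

end Vale.Agent.P207.N4.H965.Bu
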