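import Vale.Agent.P207.N4.H965.AffB1
import Vale.Agent.P207.N4.H77.Aff4

/-!
# P207, row T1 with a bunching condition along each orbit: affine charts of the unstable leaves, part 2

Same charts `lin`, `aff` as in `H77`; the hypothesis `b < 2 a` is replaced by `Bun L`: the
contraction and the expansion of the leaf are bounded by functions `al t x`, `be t x` of the orbit
with `be t x * al t x ^ 2 ≤ exp (-ε t)`.
-/

open Set Filter Topology Metric MeasureTheory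
open scoped ContDiff Nat

set_option linter.unusedSectionVars false

noncomputable section

namespace Vale.Agent.P207.N4.H965.Bu

open Vale.Agent.P207.N3 Vale.Agent.P207.N3.H646 Vale.Agent.P207.H77
open Vale.Agent.P207.N4 Vale.Agent.P207.N4.H646 Vale.Agent.P207.N4.H77

variable [Dim]

variable {Γ X B : Type} [Group Γ] [MetricSpace X] [ProperSpace X] [MulAction Γ X]
  [IsIsometricSMul Γ X] [TopologicalSpace B] [CompactSpace B] [T2Space B] [MulAction Γ B]
  [ContinuousConstSMul Γ B]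

variable {L : Leaf Γ X B} {a b : ℝ} (R : LRates L a b) (hB : Bun L)
include R hB

/-- the shift law for one step -/
theorem lin_step (x : X) {u : E2} (hu : u ∈ ball (0 : E2) 3) :
    lin L x u = Dt L L.t1 (L.φ (-L.t1) x) (lin L (L.φ (-L.t1) x) (pm L L.t1 x u)) := by
  have hw : pm L L.t1 x u ∈ ball (0 : E2) 3 :=
    ball_subset_ball (by norm_num) (pm_mem L le_rfl x hu)
  have h1 := (lin_tendsto hB x hu).comp (tendsto_add_atTop_nat 1)
  have h2 := ((Dt L L.t1 (L.φ (-L.t1) x)).continuous.tendsto _).comp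
    (lin_tendsto hB (L.φ (-L.t1) x) hw)
  refine tendsto_nhds_unique h1 (h2.congr fun n => ?_)
  show Dt L L.t1 (L.φ (-L.t1) x) (Dt L ((n + 1 : ℝ) * L.t1)
    (L.φ (-((n + 1 : ℝ) * L.t1)) (L.φ (-L.t1) x))
    (pm L ((n + 1 : ℝ) * L.t1) (L.φ (-L.t1) x) (pm L L.t1 x u))) =
    Dt L ((((n + 1 : ℕ) : ℝ) + 1) * L.t1) (L.φ (-((((n + 1 : ℕ) : ℝ) + 1) * L.t1)) x)
      (pm L ((((n + 1 : ℕ) : ℝ) + 1) * L.t1) x u)
  have e1 : (((n + 1 : ℕ) : ℝ) + 1) * L.t1 = L.t1 + (n + 1 : ℝ) * L.t1 := by push_cast; ring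
  have e2 : L.φ (-((n + 1 : ℝ) * L.t1)) (L.φ (-L.t1) x) =
      L.φ (-(L.t1 + (n + 1 : ℝ) * L.t1)) x := by
    rw [← L.φ_add]; congr 1; ring
  have e3 := pm_pm L (le_refl L.t1) (t_mulB n) x hu
  have e4 : L.φ ((n + 1 : ℝ) * L.t1) (L.φ (-(L.t1 + (n + 1 : ℝ) * L.t1)) x) =
      L.φ (-L.t1) x := by
    rw [← L.φ_add]; congr 1; ring
  rw [e1, e3, e2, Dt_add, e4]
  rfl

/-- **the shift law** -/
theorem lin_shift {s : ℝ} (hs : L.t1 ≤ s) (x : X) {u : E2} (hu : u ∈ ball (0 : E2) 3) :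
    lin L x u = Dt L s (L.φ (-s) x) (lin L (L.φ (-s) x) (pm L s x u)) := by
  obtain ⟨Cq, hCq0, hq⟩ := lin_quad hB
  obtain ⟨Ci, hCi1, hCi⟩ := fwd R
  obtain ⟨Cl, hCl1, hCl⟩ := pm_lip R
  obtain ⟨Cp, hCp1, hCp⟩ := pm_quad R
  symm
  refine lin_unique hB (l := fun x u => Dt L s (L.φ (-s) x) (lin L (L.φ (-s) x) (pm L s x u)))
    ?_ (C := Ci * Real.exp (b * s) * (Cq * (Cl * Real.exp (-a * s)) * (Cl * Real.exp (-a * s)) +
      Cp * Real.exp (-a * s))) ?_ x hu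
  · intro x u hu
    have hv : pm L s x u ∈ ball (0 : E2) 3 := ball_subset_ball (by norm_num) (pm_mem L hs x hu)
    have e1 := lin_step R hB (L.φ (-s) x) hv
    have e2 := pm_pm L hs (le_refl L.t1) x hu
    have e3 := pm_pm L (le_refl L.t1) hs x hu
    have e4 : L.φ (-L.t1) (L.φ (-s) x) = L.φ (-(s + L.t1)) x := by
      rw [← L.φ_add]; congr 1; ring
    have e5 : L.φ (-s) (L.φ (-L.t1) x) = L.φ (-(s + L.t1)) x := by
      rw [← L.φ_add]; congr 1; ring
    have e6 : L.φ L.t1 (L.φ (-(s + L.t1)) x) = L.φ (-s) x := by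
      rw [← L.φ_add]; congr 1; ring
    have e7 : L.φ s (L.φ (-(s + L.t1)) x) = L.φ (-L.t1) x := by
      rw [← L.φ_add]; congr 1; ring
    show Dt L s (L.φ (-s) x) (lin L (L.φ (-s) x) (pm L s x u)) =
      Dt L L.t1 (L.φ (-L.t1) x) (Dt L s (L.φ (-s) (L.φ (-L.t1) x))
        (lin L (L.φ (-s) (L.φ (-L.t1) x)) (pm L s (L.φ (-L.t1) x) (pm L L.t1 x u))))
    rw [e1, e2, e3, e4, e5, add_comm L.t1 s]
    have h1 := congrArg (fun A : E2 →L[ℝ] E2 => A (lin L (L.φ (-(s + L.t1)) x)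
      (pm L (s + L.t1) x u))) (Dt_add L s L.t1 (L.φ (-(s + L.t1)) x))
    have h2 := congrArg (fun A : E2 →L[ℝ] E2 => A (lin L (L.φ (-(s + L.t1)) x)
      (pm L (s + L.t1) x u))) (Dt_add L L.t1 s (L.φ (-(s + L.t1)) x))
    rw [e6] at h1
    rw [e7, add_comm L.t1 s] at h2
    exact h1.symm.trans h2
  · intro x u hu
    have hv : pm L s x u ∈ ball (0 : E2) 3 := ball_subset_ball (by norm_num) (pm_mem L hs x hu)
    set z := L.φ (-s) x with hz
    set v := pm L s x u with hvdef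
    have h1 : u = Dt L s z (Dt L (-s) x u) := by
      have := congrArg (fun A : E2 →L[ℝ] E2 => A u) (Dt_comp_neg L s x)
      simpa using this.symm
    have h2 : Dt L s z (lin L z v) - u = Dt L s z ((lin L z v - v) + (v - Dt L (-s) x u)) := by
      conv_lhs => rw [h1]
      rw [← map_sub]
      congr 1
      abel
    have h3 : ‖v‖ ≤ Cl * Real.exp (-a * s) * ‖u‖ := by
      have := hCl x s hs u hu 0 zero_mem3
      rwa [pm_zero, sub_zero, sub_zero] at this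
    have h4 : ‖lin L z v - v‖ ≤ Cq * (Cl * Real.exp (-a * s) * ‖u‖) *
        (Cl * Real.exp (-a * s) * ‖u‖) := by
      refine ((hq z v hv).2).trans ?_
      gcongr
    have h5 := hCp x s hs u hu
    show ‖Dt L s z (lin L z v) - u‖ ≤ _
    rw [h2]
    refine ((Dt L s z).le_opNorm _).trans ?_
    refine (mul_le_mul (hCi z s hs) ((norm_add_le _ _).trans (add_le_add h4 h5)) (norm_nonneg _)
      (by positivity)).trans (le_of_eq ?_)
    ring

/-- **the rate** -/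
theorem lin_rate : ∃ C ε : ℝ, 1 ≤ C ∧ 0 < ε ∧ ∀ x, ∀ t ≥ L.t1, ∀ u ∈ ball (0 : E2) 3,
    ‖lin L x u - Dt L t (L.φ (-t) x) (pm L t x u)‖ ≤ C * Real.exp (-ε * t) := by
  obtain ⟨Cq, hCq0, hq⟩ := lin_quad hB
  have hsh := fun (x : X) (t : ℝ) (ht : L.t1 ≤ t) (u : E2) (hu : u ∈ ball (0 : E2) 3) =>
    lin_shift R hB ht x hu
  obtain ⟨al, be, ε, D, Q⟩ := hB
  obtain ⟨Ci, hCi1, hCi⟩ := fwdB Q
  obtain ⟨Cs, hCs1, hCs⟩ := pm_smallB Q
  refine ⟨max 1 (Ci * (Cq * Cs * Cs)), ε, le_max_left _ _, Q.e0, fun x t ht u hu => ?_⟩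
  have hv : pm L t x u ∈ ball (0 : E2) 3 := ball_subset_ball (by norm_num) (pm_mem L ht x hu)
  rw [hsh x t ht u hu, ← map_sub]
  refine ((Dt L t (L.φ (-t) x)).le_opNorm _).trans ?_
  have hal := Q.al0 t (L.φ (-t) x)
  have hbe := Q.be0 t (L.φ (-t) x)
  have hp := Q.prod (L.φ (-t) x) t ht
  have h3 := hCs x t ht u hu
  have h2 := hCi (L.φ (-t) x) t ht
  set A1 := al t (L.φ (-t) x)
  set B1 := be t (L.φ (-t) x)
  have h4 : ‖lin L (L.φ (-t) x) (pm L t x u) - pm L t x u‖ ≤ Cq * (Cs * A1) * (Cs * A1) := by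
    refine ((hq _ _ hv).2).trans ?_
    gcongr
  refine (mul_le_mul h2 h4 (norm_nonneg _) (by positivity)).trans ?_
  calc Ci * B1 * (Cq * (Cs * A1) * (Cs * A1)) = (Ci * (Cq * Cs * Cs)) * (B1 * A1 ^ 2) := by ring
    _ ≤ (Ci * (Cq * Cs * Cs)) * Real.exp (-ε * t) :=
      mul_le_mul_of_nonneg_left hp (by positivity)
    _ ≤ _ := by
      gcongr
      exact le_max_right _ _

theorem lin_rot (g : O2) (x : X) {u : E2} (hu : u ∈ ball (0 : E2) 3) :
    lin L (L.rot g x) u = g.symm (lin L x (g u)) := by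
  have hu' : g u ∈ ball (0 : E2) 3 := by
    rw [mem_ball_zero_iff, g.norm_map, ← mem_ball_zero_iff]; exact hu
  have h1 := lin_tendsto hB (L.rot g x) hu
  have h2 := (g.symm.continuous.tendsto _).comp (lin_tendsto hB x hu')
  refine tendsto_nhds_unique h1 (h2.congr fun n => ?_)
  show g.symm (Dt L ((n + 1 : ℝ) * L.t1) (L.φ (-((n + 1 : ℝ) * L.t1)) x)
    (pm L ((n + 1 : ℝ) * L.t1) x (g u))) = _
  have h3 : pm L ((n + 1 : ℝ) * L.t1) (L.rot g x) u =
      g.symm (pm L ((n + 1 : ℝ) * L.t1) x (g u)) := by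
    unfold pm
    rw [← L.rot_φ]
    exact (tau_rot g (mem_dm_back L (t_mulB n) x hu')).2
  rw [h3, ← L.rot_φ, Dt_rot, LinearIsometryEquiv.apply_symm_apply]

theorem lin_smul (g : Γ) (x : X) {u : E2} (hu : u ∈ ball (0 : E2) 3) :
    lin L (g • x) u = lin L x u := by
  have h1 := lin_tendsto hB (g • x) hu
  have h2 := lin_tendsto hB x hu
  refine tendsto_nhds_unique h1 (h2.congr fun n => ?_)
  have h3 : pm L ((n + 1 : ℝ) * L.t1) (g • x) u = pm L ((n + 1 : ℝ) * L.t1) x u := by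
    unfold pm
    rw [L.φ_smul]
    exact tau_smul L (mem_dm_back L (t_mulB n) x hu)
  rw [h3, L.φ_smul, Dt_smul]

/-- the linearisation is close to the identity on a small ball, uniformly -/
theorem lin_approx : ∃ δ : ℝ, 0 < δ ∧ δ ≤ 1 ∧ ∀ x,
    (∀ u ∈ closedBall (0 : E2) δ, ∀ v ∈ closedBall (0 : E2) δ,
      ‖lin L x u - lin L x v - (u - v)‖ ≤ 1 / 2 * ‖u - v‖) ∧
    (∀ v ∈ closedBall (0 : E2) (δ / 2), ∃ u ∈ closedBall (0 : E2) δ, lin L x u = v) ∧
    ∀ u ∈ closedBall (0 : E2) δ, ‖fderiv ℝ (lin L x) u - ContinuousLinearMap.id ℝ E2‖ ≤ 1 / 2 := by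
  obtain ⟨Cq, hCq0, hq⟩ := lin_quad hB
  set δ : ℝ := 1 / (2 * (Cq + 1)) with hδ
  have hδ0 : 0 < δ := by positivity
  have hδ1 : δ ≤ 1 := by
    rw [hδ, div_le_one (by positivity)]; linarith
  have hCδ : Cq * δ ≤ 1 / 2 := by
    rw [hδ, mul_one_div, div_le_iff₀ (by positivity)]; linarith
  have hsub : closedBall (0 : E2) δ ⊆ ball 0 3 := closedBall_subset_ball (by linarith)
  refine ⟨δ, hδ0, hδ1, fun x => ?_⟩
  have h3 : ∀ u ∈ closedBall (0 : E2) δ,
      ‖fderiv ℝ (lin L x) u - ContinuousLinearMap.id ℝ E2‖ ≤ 1 / 2 := by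
    intro u hu
    refine ((hq x u (hsub hu)).1).trans ?_
    have : ‖u‖ ≤ δ := mem_closedBall_zero_iff.1 hu
    calc Cq * ‖u‖ ≤ Cq * δ := by gcongr
      _ ≤ 1 / 2 := hCδ
  have h1 : ∀ u ∈ closedBall (0 : E2) δ, ∀ v ∈ closedBall (0 : E2) δ,
      ‖lin L x u - lin L x v - (u - v)‖ ≤ 1 / 2 * ‖u - v‖ := by
    intro u hu v hv
    have hd : ∀ w ∈ closedBall (0 : E2) δ, HasFDerivWithinAt (fun w => lin L x w - w)
        (fderiv ℝ (lin L x) w - ContinuousLinearMap.id ℝ E2) (closedBall 0 δ) w := fun w hw =>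
      ((((jc_lin hB).smooth (x, w) ⟨trivial, hsub hw⟩).differentiableAt
        (by simp)).hasFDerivAt.sub (hasFDerivAt_id w)).hasFDerivWithinAt
    have := (convex_closedBall (0 : E2) δ).norm_image_sub_le_of_norm_hasFDerivWithin_le hd h3 hv hu
    calc ‖lin L x u - lin L x v - (u - v)‖ = ‖(lin L x u - u) - (lin L x v - v)‖ := by
          congr 1; abel
      _ ≤ _ := this
  refine ⟨h1, fun v hv => ?_, h3⟩
  have hA : ApproximatesLinearOn (lin L x) (ContinuousLinearMap.id ℝ E2) (closedBall 0 δ)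
      (1 / 2 : NNReal) := by
    intro u hu w hw
    have := h1 u hu w hw
    simpa using this
  let ri : (ContinuousLinearMap.id ℝ E2).NonlinearRightInverse :=
    ⟨fun y => y, 1, fun y => by simp, fun y => by simp⟩
  have hS := hA.surjOn_closedBall_of_nonlinearRightInverse ri hδ0.le (b := 0) (subset_refl _)
  rw [lin_zero hB] at hS
  have hr : (((ri.nnnorm : ℝ)⁻¹ - ((1 / 2 : NNReal) : ℝ)) * δ) = δ / 2 := by
    have : ri.nnnorm = 1 := rfl
    rw [this]; norm_num; ring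
  rw [hr] at hS
  exact hS hv

end Vale.Agent.P207.N4.H965.Bu
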