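import Vale.Agent.P207.N4.H965.AffB3
import Vale.Agent.P207.N4.H77.Aff5

/-!
# P207, row T1 with a bunching condition along each orbit: affine charts of the unstable leaves, part 4

Same charts `lin`, `aff` as in `H77`; the hypothesis `b < 2 a` is replaced by `Bun L`: the
contraction and the expansion of the leaf are bounded by functions `al t x`, `be t x` of the orbit
with `be t x * al t x ^ 2 ≤ exp (-ε t)`.
-/

open Set Filter Topology Metric MeasureTheory
open scoped ContDiff Nat

set_option linter.unusedSectionVars false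

noncomputable section

namespace Vale.Agent.P207.N4.H965.Bu

open Vale.Agent.P207.N3 Vale.Agent.P207.N3.H646 Vale.Agent.P207.H77
open Vale.Agent.P207.N4 Vale.Agent.P207.N4.H646 Vale.Agent.P207.N4.H77

variable [Dim]

variable {Γ X B : Type} [Group Γ] [MetricSpace X] [ProperSpace X] [MulAction Γ X]
  [IsIsometricSMul Γ X] [TopologicalSpace B] [CompactSpace B] [T2Space B] [MulAction Γ B]
  [ContinuousConstSMul Γ B]

attribute [local irreducible] lin Dt

variable {L : Leaf Γ X B}

/-- an injective endomorphism is invertible -/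
theorem inv_inj {A : E2 →L[ℝ] E2} (h : ∀ v, A v = 0 → v = 0) : ∃ e : E2 ≃L[ℝ] E2,
    (e : E2 →L[ℝ] E2) = A := by
  have hi : Function.Injective (A : E2 →ₗ[ℝ] E2) := by
    rw [injective_iff_map_eq_zero]
    exact h
  refine ⟨(LinearEquiv.ofInjectiveEndo _ hi).toContinuousLinearEquiv, ?_⟩
  ext v
  rfl

/-- the coordinates of a point in the past discs -/
theorem inv_smallB {al be : ℝ → X → ℝ} {ε D : ℝ} (Q : BunR L al be ε D) :
    ∃ C : ℝ, 1 ≤ C ∧ ∀ (x : X) (η : B) (S : ℝ),
    η ∈ L.e (L.φ (-S) x) '' ball 0 3 → ∀ T ≥ S + L.t1,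
    ‖L.inv (L.φ (-T) x) η‖ ≤ C * al (T - S) (L.φ (-T) x) := by
  obtain ⟨C, hC, h⟩ := pm_smallB Q
  refine ⟨C, hC, fun x η S hη T hT => ?_⟩
  have h1 := h (L.φ (-S) x) (T - S) (by linarith) (L.inv (L.φ (-S) x) η)
    (L.inv_mem_ball le_rfl hη)
  have h2 : L.φ (-(T - S)) (L.φ (-S) x) = L.φ (-T) x := by
    rw [← L.φ_add]; congr 1; ring
  rw [inv_pm L hη, h2] at h1
  have : S + (T - S) = T := by ring
  rwa [this] at h1

variable {a b : ℝ} (R : LRates L a b) (hB : Bun L)
include R hB

theorem aff_dd {x y : X} (hem : L.em x = L.em y) (hlv : L.lv x = L.lv y) {η : Fin 4 → B}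
    (hne : ∀ i, η i ≠ L.em x) (h0 : d4 (fun i => aff L x (η i)) = 0) :
    d4 (fun i => aff L y (η i)) = 0 := by
  obtain ⟨δ, K, hδ, hK, hnear⟩ := tau_near L
  obtain ⟨c₀, hc₀⟩ := L.past_close (dist x y) hδ
  obtain ⟨Cq, hCq0, hq⟩ := lin_quad hB
  have hjc := jc_lin hB
  have haeq := fun {x : X} {η : B} {T : ℝ} (h : η ∈ L.e (L.φ (-T) x) '' ball 0 3) =>
    aff_eq R hB h
  have harot := fun (g : O2) {x : X} {η : B} (h : η ≠ L.em x) => aff_rot R hB g h
  obtain ⟨al, be, ε, D, Q⟩ := hB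
  obtain ⟨Cf, hCf1, hCf⟩ := fwd R
  obtain ⟨Ci, hCi1, hCi⟩ := fwdB Q
  obtain ⟨Cc, hCc, hsc⟩ := inv_small R
  obtain ⟨C, hC, hs⟩ := inv_smallB Q
  have ha := R.a0
  have he := Q.e0
  have hepne : L.ep x ≠ L.em y := fun h => L.em_ne_ep x (hem.trans h.symm)
  -- a common disc
  obtain ⟨S, ⟨hS, hSe⟩, hSt⟩ : ∃ S : ℝ, ((∀ i, η i ∈ L.e (L.φ (-S) x) '' ball 0 3 ∧
      η i ∈ L.e (L.φ (-S) y) '' ball 0 3) ∧ L.ep x ∈ L.e (L.φ (-S) y) '' ball 0 3) ∧
      L.t1 ≤ S := by
    have h1 : ∀ i, ∀ᶠ T in atTop, η i ∈ L.e (L.φ (-T) x) '' ball 0 3 ∧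
        η i ∈ L.e (L.φ (-T) y) '' ball 0 3 := by
      intro i
      obtain ⟨T1, hT1⟩ := exists_disc L (hne i)
      obtain ⟨T2, hT2⟩ := exists_disc L (hem ▸ hne i : η i ≠ L.em y)
      filter_upwards [eventually_ge_atTop T1, eventually_ge_atTop T2] with T h1 h2
      exact ⟨hT1 T h1, hT2 T h2⟩
    obtain ⟨T3, hT3⟩ := exists_disc L hepne
    exact (((eventually_all.2 h1).and (eventually_ge_atTop T3 |>.mono fun T h => hT3 T h)).and
      (eventually_ge_atTop L.t1)).exists
  set N : ℝ := 2 * K + 1 with hN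
  have hN1 : 1 ≤ N := by linarith
  set M : ℝ := Cf * Real.exp (b * S) * Ci * ((K * (4 * Cq) + 4 * K + 4 * Cq) * (N * C) ^ 2) with hM
  have hM0 : 0 ≤ M := by positivity
  have hexp : ∀ c : ℝ, 0 < c → Tendsto (fun T : ℝ => Real.exp (-c * T)) atTop (𝓝 0) := by
    intro c hc
    have h1 : Tendsto (fun t : ℝ => Real.exp (-(c * t))) atTop (𝓝 0) :=
      Real.tendsto_exp_neg_atTop_nhds_zero.comp (Tendsto.const_mul_atTop hc tendsto_id)
    refine h1.congr fun t => ?_
    rw [neg_mul]
  have hrlim : Tendsto (fun T : ℝ => N * (Cc * Real.exp (-a * (T - S)))) atTop (𝓝 0) := by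
    have h1 := (hexp a ha).const_mul (N * (Cc * Real.exp (a * S)))
    rw [mul_zero] at h1
    refine h1.congr fun T => ?_
    have : Real.exp (-a * (T - S)) = Real.exp (a * S) * Real.exp (-a * T) := by
      rw [← Real.exp_add]; congr 1; ring
    rw [this]; ring
  have key : ∀ᶠ T : ℝ in atTop, ‖d4 (fun i => aff L y (η i))‖ ≤
      M * Real.exp (-ε * (T - S)) := by
    filter_upwards [(tendsto_order.1 hrlim).2 1 one_pos, eventually_ge_atTop c₀,
      eventually_ge_atTop (S + L.t1)] with T hT1 hT2 hT3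
    obtain ⟨g, hg⟩ := hc₀ x y hem hlv le_rfl T hT2
    set zx := L.φ (-T) x with hzx
    set zy := L.φ (-T) (L.rot g y) with hzy
    set A1 := al (T - S) zy with hA1
    set B1 := be (T - S) zy with hB1
    have hA0 : 0 ≤ A1 := Q.al0 _ _
    have hB0 : 0 ≤ B1 := Q.be0 _ _
    have hprod : B1 * A1 ^ 2 ≤ Real.exp (-ε * (T - S)) := Q.prod zy (T - S) (by linarith)
    set r₀ := min (C * A1) (Cc * Real.exp (-a * (T - S))) with hr₀
    have hr₀0 : 0 ≤ r₀ := le_min (by positivity) (by positivity)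
    set r := N * r₀ with hr
    have hr0 : 0 ≤ r := by positivity
    have hrr : r₀ ≤ r := by
      rw [hr]; exact le_mul_of_one_le_left hr₀0 hN1
    have hr1 : r < 1 := by
      refine lt_of_le_of_lt ?_ hT1
      rw [hr]
      exact mul_le_mul_of_nonneg_left (min_le_right _ _) (by linarith)
    have hr₀1 : r₀ < 1 := lt_of_le_of_lt hrr hr1
    have hxd : ∀ i, η i ∈ L.e zx '' ball 0 3 := fun i => disc3 L (disc_mono L hT3 (hS i).1)
    have hyd : ∀ i, η i ∈ L.e zy '' ball 0 3 := fun i =>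
      disc3 L (disc_mono L hT3 (disc_rot g (hS i).2))
    have hyde : L.ep x ∈ L.e zy '' ball 0 3 := disc3 L (disc_mono L hT3 (disc_rot g hSe))
    set u : Fin 4 → E2 := fun i => L.inv zx (η i) with hu
    set v : Fin 4 → E2 := fun i => L.inv zy (η i) with hv
    set w₀ : E2 := L.inv zy (L.ep x) with hw₀
    have hvr₀ : ∀ i, ‖v i‖ ≤ r₀ := fun i => le_min
      (hs (L.rot g y) (η i) S (disc_rot g (hS i).2) T hT3)
      (hsc (L.rot g y) (η i) S (disc_rot g (hS i).2) T hT3)
    have hwr₀ : ‖w₀‖ ≤ r₀ := le_min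
      (hs (L.rot g y) (L.ep x) S (disc_rot g hSe) T hT3)
      (hsc (L.rot g y) (L.ep x) S (disc_rot g hSe) T hT3)
    have hvr : ∀ i, ‖v i‖ ≤ r := fun i => (hvr₀ i).trans hrr
    -- the transition map
    have hemz : L.em zx = L.em zy := by
      rw [hzx, hzy, L.em_φ, L.em_φ, L.em_rot, hem]
    have hlvz : L.lv zx = L.lv zy := by
      rw [hzx, hzy, L.lv_φ, L.lv_φ, L.lv_rot, hlv]
    have hn := hnear zx zy hemz hlvz hg
    have hn' := hnear zy zx hemz.symm hlvz.symm (by rw [dist_comm]; exact hg)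
    have huv : (fun i => L.τ zx zy (u i)) = v := by
      funext i
      show L.inv zy (L.e zx (L.inv zx (η i))) = L.inv zy (η i)
      rw [L.e_inv (image_mono ball_subset_closedBall (hxd i))]
    have hvu : ∀ i, L.τ zy zx (v i) = u i := by
      intro i
      show L.inv zx (L.e zy (L.inv zy (η i))) = L.inv zx (η i)
      rw [L.e_inv (image_mono ball_subset_closedBall (hyd i))]
    have hw0 : L.τ zy zx w₀ = 0 := by
      show L.inv zx (L.e zy (L.inv zy (L.ep x))) = 0
      rw [L.e_inv (image_mono ball_subset_closedBall hyde)]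
      have h1 : L.ep x = L.e zx 0 := by rw [L.e_zero, hzx, L.ep_φ]
      rw [h1, L.inv_e (ball_sub zero_mem3)]
    have hlip : ∀ p ∈ ball (0 : E2) 1, ∀ q ∈ ball (0 : E2) 1,
        ‖L.τ zy zx p - L.τ zy zx q‖ ≤ K * ‖p - q‖ := by
      intro p hp q hq'
      exact (convex_ball (0 : E2) 1).norm_image_sub_le_of_norm_hasFDerivWithin_le
        (fun w hw => (tau_hasFDerivAt L hemz.symm (hn' w hw).1).hasFDerivWithinAt)
        (fun w hw => (hn' w hw).2.1) hq' hp
    have hur : ∀ i, ‖u i‖ ≤ r := by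
      intro i
      have h1 := hlip (v i) (mem_ball_zero_iff.2 (lt_of_le_of_lt (hvr₀ i) hr₀1)) w₀
        (mem_ball_zero_iff.2 (lt_of_le_of_lt hwr₀ hr₀1))
      rw [hvu i, hw0, sub_zero] at h1
      have h2 : ‖v i - w₀‖ ≤ 2 * r₀ := (norm_sub_le _ _).trans (by linarith [hvr₀ i, hwr₀])
      calc ‖u i‖ ≤ K * ‖v i - w₀‖ := h1
        _ ≤ K * (2 * r₀) := by gcongr
        _ ≤ r := by rw [hr, hN]; nlinarith
    have hball : closedBall (0 : E2) r ⊆ ball 0 1 := closedBall_subset_ball hr1
    have hball3 : closedBall (0 : E2) r ⊆ ball 0 3 := closedBall_subset_ball (by linarith)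
    -- the chart at x
    have h1 : d4 (fun i => lin L zx (u i)) = 0 := by
      have h2 : (fun i => aff L x (η i)) = fun i => Dt L T zx (lin L zx (u i)) := by
        funext i; exact haeq (hxd i)
      rw [h2, d4_map] at h0
      have h3 : Dt L T zx (d4 (fun i => lin L zx (u i))) = Dt L T zx 0 := by rw [h0, map_zero]
      exact (De L T zx).injective h3
    have hlin : ∀ (z : X) (w : Fin 4 → E2), (∀ i, ‖w i‖ ≤ r) →
        ‖d4 (fun i => lin L z (w i)) - d4 w‖ ≤ Cq * r * (4 * r) := by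
      intro z w hw
      have := dd_bound (f := lin L z) (f' := fderiv ℝ (lin L z))
        (A := ContinuousLinearMap.id ℝ E2) (K := Cq * r) (by positivity)
        (fun w hw => ((hjc.smooth (z, w) ⟨trivial, hball3 hw⟩).differentiableAt
          (by simp)).hasFDerivAt)
        (fun w hw => ((hq z w (hball3 hw)).1).trans (by
          have : ‖w‖ ≤ r := mem_closedBall_zero_iff.1 hw
          gcongr)) hw
      exact this
    have h2 : ‖d4 u‖ ≤ Cq * r * (4 * r) := by
      have := hlin zx u hur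
      rwa [h1, zero_sub, norm_neg] at this
    have h3 := dd_bound (f := L.τ zx zy) (f' := fderiv ℝ (L.τ zx zy))
      (A := fderiv ℝ (L.τ zx zy) 0) (K := K * r) (by positivity)
      (fun w hw => tau_hasFDerivAt L hemz (hn w (hball hw)).1)
      (fun w hw => ((hn w (hball hw)).2.2).trans (by
          have : ‖w‖ ≤ r := mem_closedBall_zero_iff.1 hw
          gcongr)) hur
    rw [huv] at h3
    have h4 : ‖fderiv ℝ (L.τ zx zy) 0 (d4 u)‖ ≤ K * (Cq * r * (4 * r)) := by
      refine (ContinuousLinearMap.le_opNorm _ _).trans ?_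
      have := (hn 0 (mem_ball_self one_pos)).2.1
      gcongr
    have h5 : ‖d4 v‖ ≤ K * (Cq * r * (4 * r)) + K * r * (4 * r) := by
      have := norm_le_norm_add_norm_sub' (d4 v) (fderiv ℝ (L.τ zx zy) 0 (d4 u))
      linarith
    -- the chart at y
    have h6 : ‖d4 (fun i => lin L zy (v i))‖ ≤
        K * (Cq * r * (4 * r)) + K * r * (4 * r) + Cq * r * (4 * r) := by
      have h7 := hlin zy v hvr
      have := norm_le_norm_add_norm_sub' (d4 (fun i => lin L zy (v i))) (d4 v)
      linarith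
    have h7 : ‖d4 (fun i => aff L y (η i))‖ = ‖d4 (fun i => aff L (L.rot g y) (η i))‖ := by
      have h8 : (fun i => aff L (L.rot g y) (η i)) =
          fun i => (g.symm.toContinuousLinearEquiv : E2 →L[ℝ] E2) (aff L y (η i)) := by
        funext i
        exact harot g (hem ▸ hne i : η i ≠ L.em y)
      rw [h8, d4_map]
      exact (g.symm.norm_map _).symm
    have h8 : (fun i => aff L (L.rot g y) (η i)) = fun i => Dt L T zy (lin L zy (v i)) := by
      funext i; exact haeq (hyd i)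
    have h9 : L.φ (T - S) zy = L.φ (-S) (L.rot g y) := by
      rw [hzy, ← L.φ_add]; congr 1; ring
    have h10 : ∀ q, Dt L T zy q = Dt L S (L.φ (-S) (L.rot g y)) (Dt L (T - S) zy q) := by
      intro q
      have h11 := congrArg (fun A : E2 →L[ℝ] E2 => A q) (Dt_add L S (T - S) zy)
      rw [h9] at h11
      have h12 : S + (T - S) = T := by ring
      rw [h12] at h11
      exact h11
    rw [h7, h8, d4_map, h10]
    have h13 : ‖Dt L (T - S) zy (d4 fun i => lin L zy (v i))‖ ≤
        Ci * B1 * (K * (Cq * r * (4 * r)) + K * r * (4 * r) + Cq * r * (4 * r)) :=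
      ((Dt L (T - S) zy).le_opNorm _).trans
        (mul_le_mul (hCi zy (T - S) (by linarith)) h6 (norm_nonneg _) (by positivity))
    refine ((Dt L S (L.φ (-S) (L.rot g y))).le_opNorm _).trans ?_
    refine (mul_le_mul (hCf _ S hSt) h13 (norm_nonneg _) (by positivity)).trans ?_
    have h14 : r ^ 2 ≤ (N * C) ^ 2 * A1 ^ 2 := by
      have h15 : r ≤ N * C * A1 := by
        rw [hr, mul_assoc]
        exact mul_le_mul_of_nonneg_left (min_le_left _ _) (by linarith)
      calc r ^ 2 ≤ (N * C * A1) ^ 2 := by gcongr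
        _ = (N * C) ^ 2 * A1 ^ 2 := by ring
    calc Cf * Real.exp (b * S) * (Ci * B1 * (K * (Cq * r * (4 * r)) + K * r * (4 * r) +
          Cq * r * (4 * r)))
        = Cf * Real.exp (b * S) * (Ci * B1 * ((K * (4 * Cq) + 4 * K + 4 * Cq) * r ^ 2)) := by ring
      _ ≤ Cf * Real.exp (b * S) * (Ci * B1 * ((K * (4 * Cq) + 4 * K + 4 * Cq) *
          ((N * C) ^ 2 * A1 ^ 2))) := by gcongr
      _ = M * (B1 * A1 ^ 2) := by rw [hM]; ring
      _ ≤ M * Real.exp (-ε * (T - S)) := mul_le_mul_of_nonneg_left hprod hM0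
  have hlim : Tendsto (fun T : ℝ => M * Real.exp (-ε * (T - S))) atTop (𝓝 0) := by
    have h1 := (hexp ε he).const_mul (M * Real.exp (ε * S))
    rw [mul_zero] at h1
    refine h1.congr fun T => ?_
    have : Real.exp (-ε * (T - S)) = Real.exp (ε * S) * Real.exp (-ε * T) := by
      rw [← Real.exp_add]; congr 1; ring
    rw [this]; ring
  have h12 : ‖d4 (fun i => aff L y (η i))‖ ≤ 0 := ge_of_tendsto hlim key
  exact norm_le_zero_iff.1 h12

/-- parallelograms go to parallelograms -/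
theorem aff_dd' {x y : X} (hem : L.em x = L.em y) {η : Fin 4 → B}
    (hne : ∀ i, η i ≠ L.em x) (h0 : d4 (fun i => aff L x (η i)) = 0) :
    d4 (fun i => aff L y (η i)) = 0 := by
  set s := L.lv x - L.lv y with hs
  have h1 := aff_dd R hB (x := x) (y := L.φ s y) (by rw [L.em_φ, hem])
    (by rw [L.lv_φ, hs]; ring) hne h0
  have h2 : (fun i => aff L (L.φ s y) (η i)) = fun i => Dt L s y (aff L y (η i)) := by
    funext i
    exact aff_φ R hB s (hem ▸ hne i : η i ≠ L.em y)
  rw [h2, d4_map] at h1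
  have h3 : Dt L s y (d4 (fun i => aff L y (η i))) = Dt L s y 0 := by rw [h1, map_zero]
  exact (De L s y).injective h3

/-- the change of frame is affine -/
theorem exists_lin {pt : X → E2 → B} (hne : ∀ x q, pt x q ≠ L.em x)
    (hpt : ∀ x q, aff L x (pt x q) = q) (x y : X) (hem : L.em x = L.em y) :
    ∃ A : E2 ≃L[ℝ] E2, ∀ q, aff L y (pt x q) = A (q - aff L x (L.ep y)) := by
  have hne' : ∀ q, pt x q ≠ L.em y := fun q => hem ▸ hne x q
  set H : E2 → E2 := fun q => aff L y (pt x q) with hH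
  have hHc : Continuous H := by
    rw [continuous_iff_continuousAt]
    intro q
    have h1 := aff_cont R hB (hne' q)
    have h2 : ContinuousAt (fun q => (y, pt x q)) q :=
      (Continuous.prodMk continuous_const
        ((pt_cont R hB hne hpt).comp (Continuous.prodMk continuous_const continuous_id))).continuousAt
    exact ContinuousAt.comp (f := fun q => (y, pt x q)) (g := fun p : X × B => aff L p.1 p.2) h1 h2
  have hadd : ∀ p q, H (p + q) - H 0 = (H p - H 0) + (H q - H 0) := by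
    intro p q
    have h1 := aff_dd' R hB hem (η := ![pt x (p + q), pt x p, pt x q, pt x 0])
      (by intro i; fin_cases i <;> exact hne x _)
      (by simp [d4, hpt])
    simp only [d4, Matrix.cons_val_zero, Matrix.cons_val_one, Matrix.cons_val] at h1
    have h2 : H (p + q) - H p - H q + H 0 = 0 := h1
    have h3 : H (p + q) = H p + H q - H 0 := by
      have h4 : H (p + q) - (H p + H q - H 0) = H (p + q) - H p - H q + H 0 := by abel
      exact sub_eq_zero.1 (h4.trans h2)
    rw [h3]; abel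
  let A0 : E2 →+ E2 := AddMonoidHom.mk' (fun q => H q - H 0) hadd
  have hA0c : Continuous A0 := hHc.sub continuous_const
  set A : E2 →L[ℝ] E2 := A0.toRealLinearMap hA0c with hA
  have hAH : ∀ q, A q = H q - H 0 := fun q => rfl
  obtain ⟨e, he⟩ := inv_inj (A := A) (fun v hv => by
    rw [hAH, sub_eq_zero] at hv
    have h1 := aff_inj R hB (hne' v) (hne' 0) hv
    have h2 := congrArg (aff L x) h1
    rwa [hpt, hpt] at h2)
  refine ⟨e, fun q => ?_⟩
  have hep : L.ep y ≠ L.em x := hem ▸ (L.em_ne_ep y).symm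
  have h1 : pt x (aff L x (L.ep y)) = L.ep y :=
    aff_inj R hB (hne _ _) hep (hpt _ _)
  have h2 : H (aff L x (L.ep y)) = 0 := by
    show aff L y (pt x (aff L x (L.ep y))) = 0
    rw [h1, aff_ep R hB]
  have h3 : ∀ q, e q = A q := fun q => by rw [← he]; rfl
  rw [map_sub, h3, h3, hAH, hAH, h2]
  show H q = _
  abel

end Vale.Agent.P207.N4.H965.Bu
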