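import Vale.Agent.P207.N4.H965.AffB4
import Vale.Agent.P207.N4.H77.RatesV

/-!
# P207, row P9: rates with a clock give a bunched leaf

`crude_of`, `bun_of` : the crude rates and the bunching of the leaf from `H77V.LRatesV`.
-/

open Set Filter Topology Metric MeasureTheory
open scoped ContDiff Nat

set_option linter.unusedSectionVars false

noncomputable section

namespace Vale.Agent.P207.N4.H965.Bu

open Vale.Agent.P207.N3 Vale.Agent.P207.N3.H646 Vale.Agent.P207.H77
open Vale.Agent.P207.N4 Vale.Agent.P207.N4.H646 Vale.Agent.P207.N4.H77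

variable [Dim]

variable {Γ X B : Type} [Group Γ] [MetricSpace X] [ProperSpace X] [MulAction Γ X]
  [IsIsometricSMul Γ X] [TopologicalSpace B] [CompactSpace B] [T2Space B] [MulAction Γ B]
  [ContinuousConstSMul Γ B]

variable {L : Leaf Γ X B} {σ : ℝ → X → ℝ} {a b c₀ c₁ : ℝ}

theorem crude_of (R : H77V.LRatesV L σ a b c₀ c₁) :
    H77.LRates L (a * c₀) (max (b * c₁) (a * c₀)) where
  a0 := mul_pos R.a0 R.c00
  ab := le_max_right _ _
  con := fun k hk => by
    obtain ⟨C, hC⟩ := R.con k hk
    refine ⟨max C 0, fun x t ht u hu => (hC x t ht u hu).trans ?_⟩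
    have h0 : 0 ≤ t := L.t1_pos.le.trans ht
    have h1 : Real.exp (-a * σ t x) ≤ Real.exp (-(a * c₀) * t) := by
      apply Real.exp_le_exp.2
      have := mul_le_mul_of_nonneg_left (R.clo x t h0) R.a0.le
      linarith
    calc C * Real.exp (-a * σ t x) ≤ max C 0 * Real.exp (-a * σ t x) := by
          gcongr
          exact le_max_left _ _
      _ ≤ max C 0 * Real.exp (-(a * c₀) * t) := by
          have := le_max_right C 0
          gcongr
  inv := by
    obtain ⟨C, hC⟩ := R.inv
    refine ⟨max C 0, fun x t ht => (hC x t ht).trans ?_⟩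
    have h0 : 0 ≤ t := L.t1_pos.le.trans ht
    have hb : 0 < b := R.a0.trans_le R.ab
    have h1 : Real.exp (b * σ t x) ≤ Real.exp (max (b * c₁) (a * c₀) * t) := by
      apply Real.exp_le_exp.2
      have h2 := mul_le_mul_of_nonneg_left (R.chi x t h0) hb.le
      have h3 := mul_le_mul_of_nonneg_right (le_max_left (b * c₁) (a * c₀)) h0
      linarith
    calc C * Real.exp (b * σ t x) ≤ max C 0 * Real.exp (b * σ t x) := by
          gcongr
          exact le_max_left _ _
      _ ≤ _ := by
          have := le_max_right C 0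
          gcongr

theorem bunR_of (R : H77V.LRatesV L σ a b c₀ c₁) :
    BunR L (fun t x => Real.exp (-a * σ t x)) (fun t x => Real.exp (b * σ t x))
      ((2 * a - b) * c₀) (Real.exp (b * (c₁ * L.t1))) where
  e0 := mul_pos (by linarith [R.hab]) R.c00
  al0 := fun t x => (Real.exp_pos _).le
  be0 := fun t x => (Real.exp_pos _).le
  al1 := fun x t ht => by
    have h0 : 0 ≤ t := L.t1_pos.le.trans ht
    have h1 := R.clo x t h0
    have h2 : 0 ≤ σ t x := (mul_nonneg R.c00.le h0).trans h1
    have h3 := mul_nonneg R.a0.le h2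
    exact Real.exp_le_one_iff.2 (by linarith)
  prod := fun x t ht => by
    have h0 : 0 ≤ t := L.t1_pos.le.trans ht
    show Real.exp (b * σ t x) * Real.exp (-a * σ t x) ^ 2 ≤ _
    rw [← Real.exp_nat_mul, ← Real.exp_add]
    apply Real.exp_le_exp.2
    have h1 := mul_le_mul_of_nonneg_left (R.clo x t h0) (show 0 ≤ 2 * a - b by linarith [R.hab])
    push_cast
    nlinarith
  step := fun x t ht => by
    have h1 := R.add x t L.t1
    have h2 := R.chi x L.t1 L.t1_pos.le
    have hb : 0 < b := R.a0.trans_le R.ab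
    show Real.exp (b * σ (t + L.t1) x) ≤ Real.exp (b * (c₁ * L.t1)) *
      Real.exp (b * σ t (L.φ L.t1 x))
    rw [h1, ← Real.exp_add]
    apply Real.exp_le_exp.2
    have h3 := mul_le_mul_of_nonneg_left h2 hb.le
    linarith
  b1 := fun x => by
    have h2 := R.chi x L.t1 L.t1_pos.le
    have hb : 0 < b := R.a0.trans_le R.ab
    exact Real.exp_le_exp.2 (mul_le_mul_of_nonneg_left h2 hb.le)
  con := fun k hk => R.con k hk
  inv := R.inv

theorem bun_of (R : H77V.LRatesV L σ a b c₀ c₁) : Bun L := ⟨_, _, _, _, bunR_of R⟩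

end Vale.Agent.P207.N4.H965.Bu
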